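import Vale.Agent.P004H.H86.Rsu
import Vale.Agent.P004H.H2.Theta2
import Vale.Agent.P004H.H2.Rem11
import Vale.Agent.P004H.H792.MeanH
import Vale.Agent.P004H.H833.Inv

/-!
# P004H.H86: the exact functional equation of the Rankin-Selberg theta function of `X_0(11)`
-/

open UpperHalfPlane MeasureTheory Set
open scoped MatrixGroups Modular ENNReal Real

namespace Vale.Agent.P004H.H86

open Vale.Agent.P004H.H392 (W wi Lam Dat)

/-! ### the fundamental domain has finite volume -/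

theorem fd_finite : (volume : Measure ℍ) (𝒟 : Set ℍ) < ⊤ := by
  have hD : MeasurableSet (𝒟 : Set ℍ) := ModularGroup.isClosed_fd.measurableSet
  have h1 : (volume : Measure ℍ) (𝒟 : Set ℍ) = ∫⁻ z : ℍ, (𝒟 : Set ℍ).indicator (fun _ => 1) z := by
    rw [lintegral_indicator hD]; simp
  rw [h1, lint_H (measurable_const.indicator hD)]
  have h2 : ∀ y ∈ Ioi (0 : ℝ), ∫⁻ x : ℝ, (𝒟 : Set ℍ).indicator (fun _ => (1 : ℝ≥0∞))
      (ofComplex (⟨x, y⟩ : ℂ)) * ENNReal.ofReal (1 / y ^ 2) ≤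
      (Ioi (1 / 2 : ℝ)).indicator (fun y => ENNReal.ofReal (1 / y ^ 2)) y := by
    intro y hy
    have hy' : (0 : ℝ) < y := hy
    have him : ∀ x : ℝ, (ofComplex (⟨x, y⟩ : ℂ)).im = y := fun x => by
      rw [ofComplex_apply_of_im_pos (z := (⟨x, y⟩ : ℂ)) hy']; rfl
    have hre : ∀ x : ℝ, (ofComplex (⟨x, y⟩ : ℂ)).re = x := fun x => by
      rw [ofComplex_apply_of_im_pos (z := (⟨x, y⟩ : ℂ)) hy']; rfl
    by_cases h : (1 / 2 : ℝ) < y
    · rw [indicator_of_mem (by exact h)]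
      calc ∫⁻ x : ℝ, (𝒟 : Set ℍ).indicator (fun _ => (1 : ℝ≥0∞))
            (ofComplex (⟨x, y⟩ : ℂ)) * ENNReal.ofReal (1 / y ^ 2)
          ≤ ∫⁻ x : ℝ, (Icc (-(1 / 2) : ℝ) (1 / 2)).indicator
              (fun _ => ENNReal.ofReal (1 / y ^ 2)) x := by
            refine lintegral_mono fun x => ?_
            by_cases hx : (ofComplex (⟨x, y⟩ : ℂ)) ∈ (𝒟 : Set ℍ)
            · have hx2 : |x| ≤ 1 / 2 := by
                have := hx.2; rwa [hre] at this
              rw [indicator_of_mem hx, indicator_of_mem (by exact abs_le.mp hx2), one_mul]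
            · rw [indicator_of_notMem hx, zero_mul]; exact zero_le
        _ = ENNReal.ofReal (1 / y ^ 2) := by
            rw [lintegral_indicator measurableSet_Icc, setLIntegral_const, Real.volume_Icc]
            norm_num
    · rw [indicator_of_notMem (by exact h)]
      refine le_of_eq ?_
      rw [lintegral_eq_zero_iff']
      · refine Filter.Eventually.of_forall fun x => ?_
        show (𝒟 : Set ℍ).indicator (fun _ => (1 : ℝ≥0∞)) (ofComplex (⟨x, y⟩ : ℂ)) *
          ENNReal.ofReal (1 / y ^ 2) = 0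
        rw [indicator_of_notMem, zero_mul]
        intro hx
        have := ModularGroup.three_le_four_mul_im_sq_of_mem_fd hx
        rw [him] at this
        nlinarith
      · have hm : Measurable fun x : ℝ => (ofComplex (⟨x, y⟩ : ℂ)) := by
          refine meas_ofC.comp ?_
          have : (fun x : ℝ => (⟨x, y⟩ : ℂ)) = fun x : ℝ => (x : ℂ) + (y : ℂ) * Complex.I := by
            funext x; apply Complex.ext <;> simp
          rw [this]; fun_prop
        exact (((measurable_const.indicator hD).comp hm).mul measurable_const).aemeasurable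
  refine lt_of_le_of_lt (setLIntegral_mono' measurableSet_Ioi h2) ?_
  refine lt_of_le_of_lt (setLIntegral_le_lintegral _ _) ?_
  rw [lintegral_indicator measurableSet_Ioi]
  have h3 : IntegrableOn (fun y : ℝ => 1 / y ^ 2) (Ioi (1 / 2)) := by
    have := integrableOn_Ioi_rpow_of_lt (a := -2) (by norm_num) (c := 1 / 2) (by norm_num)
    refine this.congr_fun (fun y hy => ?_) measurableSet_Ioi
    have hy' : (0 : ℝ) < y := lt_trans (by norm_num) hy
    show y ^ (-2 : ℝ) = 1 / y ^ 2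
    rw [Real.rpow_neg hy'.le, one_div]
    norm_num
  have h4 := h3.2
  rw [hasFiniteIntegral_iff_ofReal] at h4
  · exact h4
  · exact Filter.Eventually.of_forall fun y => by positivity

/-! ### the constant term of `H` -/

theorem H_pt {y : ℝ} (hy : 0 < y) (x : ℝ) : H833.H (ofComplex (⟨x, y⟩ : ℂ)) =
    ‖H792.Fc (x + y * Complex.I)‖ ^ 2 * y ^ 2 +
      ∑ j ∈ Finset.range 11, ‖H792.Fc ((x + y * Complex.I + j) / 11)‖ ^ 2 * (y / 11) ^ 2 := by
  have e : (⟨x, y⟩ : ℂ) = x + y * Complex.I := by apply Complex.ext <;> simp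
  have h0 : (ofComplex (⟨x, y⟩ : ℂ)) = ⟨⟨x, y⟩, hy⟩ := ofComplex_apply_of_im_pos (z := (⟨x, y⟩ : ℂ)) hy
  have h1 : ((ofComplex (⟨x, y⟩ : ℂ) : ℍ) : ℂ) = x + y * Complex.I := by rw [h0, ← e]
  have h2 : (ofComplex (⟨x, y⟩ : ℂ)).im = y := by rw [h0]; rfl
  rw [H833.H, H833.G, H792.F_eq, h1, h2]
  congr 1
  refine Finset.sum_congr rfl fun j _ => ?_
  rw [H833.G, H792.F_eq, H833.sh_coe, H833.sh_im, h1, h2]

theorem mean11 : Mean H833.H (fun n => (H792.a n : ℝ) ^ 2) := by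
  intro y hy
  obtain ⟨C, hC, hb⟩ := H833.H_bdd
  have hy11 : 0 < y / 11 := by positivity
  set f : ℝ → ℝ := fun x => H833.H (ofComplex (⟨x, y⟩ : ℂ)) with hf
  have hfm : Measurable f := by
    refine H833.H_cont.measurable.comp (meas_ofC.comp ?_)
    have : (fun x : ℝ => (⟨x, y⟩ : ℂ)) = fun x : ℝ => (x : ℂ) + (y : ℂ) * Complex.I := by
      funext x; apply Complex.ext <;> simp
    rw [this]; fun_prop
  have hf0 : ∀ x, 0 ≤ f x := fun x => (H833.H_pos _).le
  have hfi : IntegrableOn f (Ico 0 1) := by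
    refine Measure.integrableOn_of_bounded (M := C) (by simp) hfm.aestronglyMeasurable ?_
    refine Filter.Eventually.of_forall fun x => ?_
    rw [Real.norm_of_nonneg (hf0 x)]; exact hb _
  have h1 : ∫⁻ x in Ico (0 : ℝ) 1, ENNReal.ofReal (f x) =
      ENNReal.ofReal (y ^ 2 * H792.SS y + y ^ 2 / 11 * H792.SS (y / 11)) := by
    rw [← ofReal_integral_eq_lintegral_ofReal hfi (Filter.Eventually.of_forall hf0)]
    congr 1
    rw [integral_Ico_eq_integral_Ioc, ← intervalIntegral.integral_of_le zero_le_one,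
      ← H792.meanH hy]
    refine intervalIntegral.integral_congr fun x _ => ?_
    exact H_pt hy x
  rw [h1]
  have s1 := (H792.pars hy).1
  have s2 := (H792.pars hy11).1
  have e2 : ∀ m : ℕ, -(4 * π * m * (y / 11)) = -(4 * π * m * y / 11) := fun m => by ring
  simp only [e2] at s2
  have hs : HasSum (fun m : ℕ => y ^ 2 * ((H792.a m : ℝ) ^ 2 * (Real.exp (-(4 * π * m * y)) +
      Real.exp (-(4 * π * m * y / 11)) / 11)))
      (y ^ 2 * H792.SS y + y ^ 2 / 11 * H792.SS (y / 11)) := by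
    have h3 := (s1.hasSum.mul_left (y ^ 2)).add (s2.hasSum.mul_left (y ^ 2 / 11))
    simp only [H792.SS, e2]
    have h4 : (fun m : ℕ => y ^ 2 * ((H792.a m : ℝ) ^ 2 * (Real.exp (-(4 * π * m * y)) +
        Real.exp (-(4 * π * m * y / 11)) / 11))) = fun b : ℕ =>
        y ^ 2 * ((H792.a b : ℝ) ^ 2 * Real.exp (-(4 * π * b * y))) +
          y ^ 2 / 11 * ((H792.a b : ℝ) ^ 2 * Real.exp (-(4 * π * b * y / 11))) := by
      funext m; ring
    rw [h4]
    exact h3
  rw [← hs.tsum_eq, ENNReal.ofReal_tsum_of_nonneg (fun m => by positivity) hs.summable]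

/-! ### summability -/

theorem c_summ {c : ℕ → ℝ} (hc : ∀ m, 0 ≤ c m)
    (hb : ∃ C : ℝ, 0 < C ∧ ∀ X : ℝ, 1 ≤ X → ∑ n ∈ Finset.Icc 1 ⌊X⌋₊, c n ≤ C * X ^ 2)
    {σ : ℝ} (hσ : 1 < σ) : Summable fun m : ℕ => c m / m * (m : ℝ) ^ (-σ) := by
  obtain ⟨C, hC, h⟩ := hb
  have hO : (fun n : ℕ => ∑ k ∈ Finset.Icc 1 n, c k) =O[Filter.atTop] fun n : ℕ => (n : ℝ) ^ (2 : ℝ) := by
    refine Asymptotics.IsBigO.of_bound C ?_
    filter_upwards [Filter.eventually_ge_atTop 1] with n hn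
    have h1 := h n (by exact_mod_cast hn)
    rw [Nat.floor_natCast] at h1
    rw [Real.norm_of_nonneg (Finset.sum_nonneg fun k _ => hc k), Real.norm_of_nonneg (by positivity)]
    exact_mod_cast h1
  have h2 := LSeriesSummable_of_sum_norm_bigO_and_nonneg (s := ((1 + σ : ℝ) : ℂ)) hO hc (by norm_num)
    (by rw [Complex.ofReal_re]; linarith)
  have h3 := h2.norm
  refine h3.congr fun m => ?_
  rw [LSeries.norm_term_eq]
  split_ifs with hm
  · simp [hm]
  · have hm' : (0 : ℝ) < m := by exact_mod_cast Nat.pos_of_ne_zero hm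
    rw [Complex.ofReal_re, Complex.norm_real, Real.norm_of_nonneg (hc m), Real.rpow_add hm',
      Real.rpow_one, Real.rpow_neg hm'.le]
    field_simp

theorem dat_of {c : ℕ → ℝ} (hc : ∀ m, 0 ≤ c m)
    (hb : ∃ C : ℝ, 0 < C ∧ ∀ X : ℝ, 1 ≤ X → ∑ n ∈ Finset.Icc 1 ⌊X⌋₊, c n ≤ C * X ^ 2) :
    Dat (bA c) := by
  refine ⟨bA_nonneg hc, bA_zero c, fun σ hσ => ?_⟩
  have hφ : ∀ k : ℕ, 0 ≤ (k : ℝ) ^ (-σ) := fun k => by positivity
  have h1 := rearr hc hφ
  have h2 : ∑' n : ℕ, ∑' m : ℕ, ENNReal.ofReal (c m / m * (((n + 1) ^ 2 * m : ℕ) : ℝ) ^ (-σ)) =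
      (∑' n : ℕ, ENNReal.ofReal (((n : ℝ) + 1) ^ (-(2 * σ)))) *
        ∑' m : ℕ, ENNReal.ofReal (c m / m * (m : ℝ) ^ (-σ)) := by
    rw [← ENNReal.tsum_mul_right]
    refine tsum_congr fun n => ?_
    rw [← ENNReal.tsum_mul_left]
    refine tsum_congr fun m => ?_
    rw [← ENNReal.ofReal_mul (by positivity)]
    congr 1
    push_cast
    rw [Real.mul_rpow (by positivity) (by positivity), ← Real.rpow_natCast, ← Real.rpow_mul
      (by positivity)]
    push_cast
    ring_nf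
  have h3 : ∑' n : ℕ, ENNReal.ofReal (((n : ℝ) + 1) ^ (-(2 * σ))) ≠ ⊤ := by
    have h4 : Summable fun n : ℕ => ((n : ℝ) + 1) ^ (-(2 * σ)) := by
      have := (summable_nat_add_iff 1).mpr (Real.summable_nat_rpow (p := -(2 * σ))|>.mpr (by linarith))
      refine this.congr fun n => ?_
      push_cast; rfl
    exact h4.tsum_ofReal_ne_top
  have h5 : ∑' m : ℕ, ENNReal.ofReal (c m / m * (m : ℝ) ^ (-σ)) ≠ ⊤ :=
    (c_summ hc hb hσ).tsum_ofReal_ne_top
  have h6 : ∑' k : ℕ, ENNReal.ofReal (bA c k * (k : ℝ) ^ (-σ)) ≠ ⊤ := by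
    rw [← h1, h2]
    exact ENNReal.mul_ne_top h3 h5
  have h7 := ENNReal.summable_toReal h6
  refine h7.congr fun k => ?_
  rw [ENNReal.toReal_ofReal (mul_nonneg (bA_nonneg hc k) (hφ k))]

theorem dat11 : Dat (H2.ball H792.a) := dat_of (c := fun n => (H792.a n : ℝ) ^ 2)
  (fun _ => sq_nonneg _) H792.sq_sum

/-! ### the functional equation -/

theorem split0 (f : ℤ × ℤ → ℝ≥0∞) : ∑' v : ℤ × ℤ, f v = f 0 + ∑' v : NV, f v := by
  have h := ENNReal.summable.tsum_add_tsum_compl (s := ({0} : Set (ℤ × ℤ))) (f := f) ENNReal.summable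
  rw [← h, tsum_singleton]
  congr 1

/-- the exact functional equation, abstract form -/
theorem fe_of {H : ℍ → ℝ} (hm : Measurable H) (hp : ∀ z, 0 < H z)
    (hinv : ∀ (g : SL(2, ℤ)) (z : ℍ), H (g • z) = H z) (hbd : ∃ C, ∀ z, H z ≤ C)
    {c : ℕ → ℝ} (hc : ∀ m, 0 ≤ c m) (hc0 : c 0 = 0) (hM : Mean H c) (hD : Dat (bA c)) :
    ∃ c0 : ℝ, 0 < c0 ∧ ∀ t : ℝ, 0 < t → Lam (bA c) (1 / t) + c0 = t * (Lam (bA c) t + c0) := by
  obtain ⟨C, hC⟩ := hbd
  have hDm : MeasurableSet (𝒟 : Set ℍ) := ModularGroup.isClosed_fd.measurableSet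
  set I0 : ℝ≥0∞ := ∫⁻ z in (𝒟 : Set ℍ), ENNReal.ofReal (H z) with hI0
  have hHm : Measurable fun z : ℍ => ENNReal.ofReal (H z) := ENNReal.measurable_ofReal.comp hm
  have hfin : I0 ≠ ⊤ := by
    have h1 : I0 ≤ ∫⁻ _ in (𝒟 : Set ℍ), ENNReal.ofReal C :=
      lintegral_mono fun z => ENNReal.ofReal_le_ofReal (hC z)
    rw [setLIntegral_const] at h1
    exact ne_top_of_le_ne_top (ENNReal.mul_ne_top ENNReal.ofReal_ne_top fd_finite.ne) h1
  have hpos : 0 < I0 := by
    rw [hI0, setLIntegral_pos_iff hHm]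
    have h1 : Function.support (fun z : ℍ => ENNReal.ofReal (H z)) = univ := by
      ext z; simp [hp z]
    rw [h1, univ_inter]
    have h2 : (𝒟ᵒ : Set ℍ).Nonempty := by
      refine ⟨⟨2 * Complex.I, by simp⟩, ?_, ?_⟩
      · simp [Complex.normSq_apply]
        norm_num
      · simp [UpperHalfPlane.re]
    have h3 : 0 < (volume : Measure ℍ) (𝒟ᵒ : Set ℍ) := by
      have ho : IsOpen (UpperHalfPlane.coe '' (𝒟ᵒ : Set ℍ)) :=
        isOpenEmbedding_coe.isOpenMap _ ModularGroup.isOpen_fdo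
      rw [volume_eq_lintegral, setLIntegral_pos_iff (by fun_prop)]
      refine lt_of_lt_of_le (ho.measure_pos volume (h2.image _)) (measure_mono ?_)
      rintro _ ⟨z, hz, rfl⟩
      refine ⟨?_, z, hz, rfl⟩
      rw [Function.mem_support]
      have := z.im_ne_zero
      simpa using this
    exact lt_of_lt_of_le h3 (measure_mono ModularGroup.fdo_subset_fd)
  refine ⟨I0.toReal, ENNReal.toReal_pos hpos.ne' hfin, fun t ht => ?_⟩
  set A : ℝ → ℝ≥0∞ := fun t => ∫⁻ z in (𝒟 : Set ℍ), ENNReal.ofReal (H z) *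
    ∑' v : ℤ × ℤ, ENNReal.ofReal (Real.exp (-(π * t * Qf v z))) with hA
  have hA1 : ∀ t : ℝ, 0 < t → A t = ENNReal.ofReal (Lam (bA c) t + I0.toReal) := by
    intro t ht
    have e : ∀ z : ℍ, ENNReal.ofReal (H z) *
        ∑' v : ℤ × ℤ, ENNReal.ofReal (Real.exp (-(π * t * Qf v z))) =
        ENNReal.ofReal (H z) + ENNReal.ofReal (H z) *
          ∑' v : NV, ENNReal.ofReal (Real.exp (-(π * t * Qf v z))) := by
      intro z
      rw [split0, mul_add]
      congr 1
      simp [Qf]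
    simp only [hA]
    simp_rw [e]
    rw [lintegral_add_left hHm, Z_eq hm hinv hc hc0 hM hD ht,
      ENNReal.ofReal_add (H392.Lam_nonneg hD t) ENNReal.toReal_nonneg, ENNReal.ofReal_toReal hfin,
      add_comm]
  have hA2 : A (1 / t) = ENNReal.ofReal t * A t := by
    simp only [hA]
    rw [← lintegral_const_mul' _ _ ENNReal.ofReal_ne_top]
    refine lintegral_congr fun z => ?_
    have q : ∀ (t : ℝ) (v : ℤ × ℤ), Real.exp (-(π * t * Qf v z)) =
        Real.exp (-(π * t * ((v.1 * z.re + v.2) ^ 2 + (v.1 * z.im) ^ 2) / z.im)) := by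
      intro t v
      rw [Qf, mul_div_assoc]
    have h1 := H2.theta_inv (x := z.re) z.im_pos ht
    have s1 := H2.theta_summable (x := z.re) z.im_pos ht
    have s2 := H2.theta_summable (x := z.re) z.im_pos (one_div_pos.mpr ht)
    simp_rw [q]
    rw [← ENNReal.ofReal_tsum_of_nonneg (fun _ => (Real.exp_pos _).le) s1,
      ← ENNReal.ofReal_tsum_of_nonneg (fun _ => (Real.exp_pos _).le) s2, h1,
      ENNReal.ofReal_mul ht.le]
    ring
  rw [hA1 t ht, hA1 _ (one_div_pos.mpr ht), ← ENNReal.ofReal_mul ht.le] at hA2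
  have n1 : 0 ≤ Lam (bA c) (1 / t) + I0.toReal := add_nonneg (H392.Lam_nonneg hD _) ENNReal.toReal_nonneg
  have n2 : 0 ≤ t * (Lam (bA c) t + I0.toReal) :=
    mul_nonneg ht.le (add_nonneg (H392.Lam_nonneg hD _) ENNReal.toReal_nonneg)
  exact (ENNReal.ofReal_eq_ofReal_iff n1 n2).mp hA2

/-- **the exact functional equation** -/
theorem fe11 : ∃ c0 : ℝ, 0 < c0 ∧ ∀ t : ℝ, 0 < t →
    Lam (H2.ball H792.a) (1 / t) + c0 = t * (Lam (H2.ball H792.a) t + c0) := by
  obtain ⟨C, -, hC⟩ := H833.H_bdd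
  exact fe_of (c := fun n => (H792.a n : ℝ) ^ 2) H833.H_cont.measurable H833.H_pos H833.H_inv
    ⟨C, hC⟩ (fun _ => sq_nonneg _) (by simp [H792.a_zero]) mean11 dat11

end Vale.Agent.P004H.H86
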