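import Mathlib

/-!
# P004H.H86: nonzero vectors of `ℤ²` = (positive integer) x (coset of `⟨T⟩` in `SL(2, ℤ)`)
-/

open UpperHalfPlane MeasureTheory Set
open scoped MatrixGroups Modular ENNReal

namespace Vale.Agent.P004H.H86

/-- coprime pairs -/
abbrev CP := {p : ℤ × ℤ // IsCoprime p.1 p.2}

theorem row_ex (p : CP) : ∃ g : SL(2, ℤ), g 1 0 = p.1.1 ∧ g 1 1 = p.1.2 := by
  obtain ⟨a, b, h⟩ := p.2
  refine ⟨⟨!![b, -a; p.1.1, p.1.2], ?_⟩, ?_, ?_⟩
  · rw [Matrix.det_fin_two_of]; linarith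
  · simp
  · simp

noncomputable def gp (p : CP) : SL(2, ℤ) := (row_ex p).choose
theorem gp0 (p : CP) : gp p 1 0 = p.1.1 := (row_ex p).choose_spec.1
theorem gp1 (p : CP) : gp p 1 1 = p.1.2 := (row_ex p).choose_spec.2

theorem T_row (g : SL(2, ℤ)) (k : ℤ) (j : Fin 2) : (ModularGroup.T ^ k * g) 1 j = g 1 j := by
  rw [ModularGroup.T_pow_mul_apply_one]

noncomputable def Psi (x : CP × ℤ) : SL(2, ℤ) := ModularGroup.T ^ x.2 * gp x.1

theorem Psi_bij : Function.Bijective Psi := by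
  constructor
  · rintro ⟨p, k⟩ ⟨q, l⟩ h
    have h0 := congrArg (fun m : SL(2, ℤ) => m 1 0) h
    have h1 := congrArg (fun m : SL(2, ℤ) => m 1 1) h
    simp only [Psi, T_row, gp0, gp1] at h0 h1
    have hpq : p = q := Subtype.ext (Prod.ext h0 h1)
    subst hpq
    have h2 : ModularGroup.T ^ k = ModularGroup.T ^ l := mul_right_cancel h
    have h3 := congrArg (fun m : SL(2, ℤ) => m.1 0 1) h2
    simp only [ModularGroup.coe_T_zpow] at h3
    simp at h3
    rw [h3]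
  · intro g
    have hc : IsCoprime (g 1 0) (g 1 1) := ModularGroup.bottom_row_coprime g
    set p : CP := ⟨(g 1 0, g 1 1), hc⟩ with hp
    have e0 : gp p 1 0 = g 1 0 := gp0 p
    have e1 : gp p 1 1 = g 1 1 := gp1 p
    have d1 : g 0 0 * g 1 1 - g 0 1 * g 1 0 = 1 := by
      have := g.2; rwa [Matrix.det_fin_two] at this
    have d2 : gp p 0 0 * g 1 1 - gp p 0 1 * g 1 0 = 1 := by
      have := (gp p).2; rw [Matrix.det_fin_two] at this
      rw [← e0, ← e1]; exact this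
    refine ⟨(p, g 0 1 * gp p 0 0 - g 0 0 * gp p 0 1), ?_⟩
    simp only [Psi]
    apply Subtype.ext
    rw [Matrix.SpecialLinearGroup.coe_mul, ModularGroup.coe_T_zpow]
    ext i j
    have E0 : (gp p).1 1 0 = g.1 1 0 := e0
    have E1 : (gp p).1 1 1 = g.1 1 1 := e1
    have D1 : g.1 0 0 * g.1 1 1 - g.1 0 1 * g.1 1 0 = 1 := d1
    have D2 : (gp p).1 0 0 * g.1 1 1 - (gp p).1 0 1 * g.1 1 0 = 1 := d2
    fin_cases i <;> fin_cases j
    · simp [Matrix.mul_apply, Fin.sum_univ_two]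
      rw [e0]
      linear_combination (g 0 0) * d2 - (gp p 0 0) * d1
    · simp [Matrix.mul_apply, Fin.sum_univ_two]
      rw [e1]
      linear_combination (g 0 1) * d2 - (gp p 0 1) * d1
    · simp [Matrix.mul_apply, Fin.sum_univ_two]
      exact e0
    · simp [Matrix.mul_apply, Fin.sum_univ_two]
      exact e1

/-- nonzero vectors -/
abbrev NV := {v : ℤ × ℤ // v ≠ 0}

def Phi (x : ℕ × CP) : NV :=
  ⟨(((x.1 : ℤ) + 1) * x.2.1.1, ((x.1 : ℤ) + 1) * x.2.1.2), by
    intro h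
    have h1 := congrArg Prod.fst h
    have h2 := congrArg Prod.snd h
    simp only [Prod.fst_zero, Prod.snd_zero, mul_eq_zero] at h1 h2
    have hn : (x.1 : ℤ) + 1 ≠ 0 := by positivity
    have h3 : x.2.1.1 = 0 := h1.resolve_left hn
    have h4 : x.2.1.2 = 0 := h2.resolve_left hn
    have := x.2.2
    rw [h3, h4] at this
    exact not_isCoprime_zero_zero this⟩

theorem Phi_bij : Function.Bijective Phi := by
  constructor
  · rintro ⟨m, p⟩ ⟨n, q⟩ h
    have h1 := congrArg (fun v : NV => v.1.1) h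
    have h2 := congrArg (fun v : NV => v.1.2) h
    simp only [Phi] at h1 h2
    have g1 : Int.gcd (((m : ℤ) + 1) * p.1.1) (((m : ℤ) + 1) * p.1.2) = m + 1 := by
      rw [Int.gcd_mul_left, Int.isCoprime_iff_gcd_eq_one.mp p.2]
      simp; omega
    have g2 : Int.gcd (((n : ℤ) + 1) * q.1.1) (((n : ℤ) + 1) * q.1.2) = n + 1 := by
      rw [Int.gcd_mul_left, Int.isCoprime_iff_gcd_eq_one.mp q.2]
      simp; omega
    have hmn : m = n := by
      rw [h1, h2, g2] at g1; omega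
    subst hmn
    have hn : (m : ℤ) + 1 ≠ 0 := by positivity
    have h3 := mul_left_cancel₀ hn h1
    have h4 := mul_left_cancel₀ hn h2
    exact Prod.ext rfl (Subtype.ext (Prod.ext h3 h4))
  · rintro ⟨⟨c, d⟩, hv⟩
    have hg : 0 < Int.gcd c d := by
      rw [Int.gcd_pos_iff]
      by_contra hh
      push Not at hh
      exact hv (Prod.ext hh.1 hh.2)
    obtain ⟨c', hc⟩ := Int.gcd_dvd_left (a := c) (b := d)
    obtain ⟨d', hd⟩ := Int.gcd_dvd_right (a := c) (b := d)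
    have hcop : IsCoprime c' d' := by
      rw [Int.isCoprime_iff_gcd_eq_one]
      have h1 : Int.gcd ((Int.gcd c d : ℤ) * c') ((Int.gcd c d : ℤ) * d') = Int.gcd c d := by
        rw [← hc, ← hd]
      rw [Int.gcd_mul_left] at h1
      simp only [Int.natAbs_natCast] at h1
      exact Nat.eq_of_mul_eq_mul_left hg (by rw [h1, mul_one])
    refine ⟨(Int.gcd c d - 1, ⟨(c', d'), hcop⟩), ?_⟩
    apply Subtype.ext
    simp only [Phi]
    have h5 : ((Int.gcd c d - 1 : ℕ) : ℤ) + 1 = Int.gcd c d := by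
      have : Int.gcd c d - 1 + 1 = Int.gcd c d := Nat.sub_add_cancel hg
      exact_mod_cast this
    rw [h5, ← hc, ← hd]

/-- the strip `0 ≤ re < 1` -/
noncomputable def S01 (w : ℍ) : ℝ≥0∞ := ({w : ℍ | 0 ≤ w.re ∧ w.re < 1}).indicator (fun _ => 1) w

theorem sumT (w : ℍ) : ∑' k : ℤ, S01 (ModularGroup.T ^ k • w) = 1 := by
  rw [tsum_eq_single (-⌊w.re⌋)]
  · rw [S01, indicator_of_mem]
    simp only [mem_ofPred_eq, ModularGroup.re_T_zpow_smul]
    push_cast
    constructor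
    · linarith [Int.floor_le w.re]
    · linarith [Int.lt_floor_add_one w.re]
  · intro k hk
    rw [S01, indicator_of_notMem]
    simp only [mem_ofPred_eq, ModularGroup.re_T_zpow_smul]
    rintro ⟨h1, h2⟩
    apply hk
    have : ⌊w.re⌋ = -k := by
      rw [Int.floor_eq_iff]
      push_cast
      constructor <;> linarith
    omega

theorem group (z : ℍ) (f : ℤ × ℤ → ℝ≥0∞) : ∑' v : NV, f v =
    ∑' n : ℕ, ∑' γ : SL(2, ℤ), S01 (γ • z) * f (((n : ℤ) + 1) * γ 1 0, ((n : ℤ) + 1) * γ 1 1) := by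
  have h1 : ∀ n : ℕ, ∑' γ : SL(2, ℤ), S01 (γ • z) * f (((n : ℤ) + 1) * γ 1 0, ((n : ℤ) + 1) * γ 1 1)
      = ∑' p : CP, f (((n : ℤ) + 1) * p.1.1, ((n : ℤ) + 1) * p.1.2) := by
    intro n
    rw [← (Equiv.ofBijective Psi Psi_bij).tsum_eq (fun γ : SL(2, ℤ) => S01 (γ • z) *
      f (((n : ℤ) + 1) * γ 1 0, ((n : ℤ) + 1) * γ 1 1))]
    rw [ENNReal.tsum_prod']
    refine tsum_congr fun p => ?_
    have h2 : ∀ k : ℤ, S01 ((Equiv.ofBijective Psi Psi_bij) (p, k) • z) *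
        f (((n : ℤ) + 1) * (Equiv.ofBijective Psi Psi_bij) (p, k) 1 0,
          ((n : ℤ) + 1) * (Equiv.ofBijective Psi Psi_bij) (p, k) 1 1) =
        S01 (ModularGroup.T ^ k • (gp p • z)) *
          f (((n : ℤ) + 1) * p.1.1, ((n : ℤ) + 1) * p.1.2) := by
      intro k
      have h3 : (Equiv.ofBijective Psi Psi_bij) (p, k) = ModularGroup.T ^ k * gp p := rfl
      rw [h3, T_row, T_row, gp0, gp1, mul_smul]
    simp_rw [h2]
    rw [ENNReal.tsum_mul_right, sumT, one_mul]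
  simp_rw [h1]
  rw [← ENNReal.tsum_prod (f := fun (n : ℕ) (p : CP) => f (((n : ℤ) + 1) * p.1.1, ((n : ℤ) + 1) * p.1.2))]
  rw [← (Equiv.ofBijective Phi Phi_bij).tsum_eq (fun v : NV => f v)]
  rfl

end Vale.Agent.P004H.H86
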