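import Vale.Agent.P004E.Iface
import Vale.Agent.P004H.H792.Pars

/-!
# P004H.H86: `StN0` for every curve of the family of `X_0(11)` (upper bound of Rankin-Selberg)
-/

open Real

namespace Vale.Agent.P004H.H86

open P004G

/-- Module N0 for every `Crv` with `(ca n)² = a(n)²` at the good integers -/
theorem stN0_of [Crv] (hsq : ∀ n : ℕ, n.Coprime bd → (ca n) ^ 2 = (H792.a n) ^ 2) :
    P004E.StN0 := by
  obtain ⟨C, hC, h⟩ := H792.sq_sum
  refine ⟨max C 1, le_max_right _ _, fun x hx => ?_⟩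
  have h1 := h x hx
  have h2 : ∑ n ∈ Finset.Icc 1 ⌊x⌋₊, (ca n : ℝ) ^ 2 ≤
      ∑ n ∈ Finset.Icc 1 ⌊x⌋₊, (H792.a n : ℝ) ^ 2 := by
    refine Finset.sum_le_sum fun n _ => ?_
    by_cases hn : n.Coprime bd
    · exact le_of_eq (by exact_mod_cast hsq n hn)
    · rw [pfCoef.bad n hn]
      simpa using sq_nonneg (H792.a n : ℝ)
  calc ∑ n ∈ Finset.Icc 1 ⌊x⌋₊, (ca n : ℝ) ^ 2 ≤ C * x ^ 2 := h2.trans h1
    _ ≤ max C 1 * x ^ 2 := by gcongr; exact le_max_left _ _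

end Vale.Agent.P004H.H86
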